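import Vale.Agent.Lib.P079.Main

/-!
# P079: Kirk's problem reduces to separable reflexive spaces

(1) In any real normed space, every point of a closed convex set `C` lies in a separable closed
convex subset of `C` that is invariant under a given nonexpansive selfmap of `C`.

(2) A real normed space has the fixed point property if and only if all its separable closed
subspaces have it.

(3) All reflexive Banach spaces have the fixed point property if and only if all separable
reflexive Banach spaces have it.
-/

namespace Vale.Agent.Results.P079.SeparablyDetermined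

open Vale.Agent.Lib.P079 TopologicalSpace

universe u

theorem result :
    (∀ (X : Type u) [NormedAddCommGroup X] [NormedSpace ℝ X] (C : Set X) (T : X → X),
      IsClosed C → Convex ℝ C → NonexpansiveOn T C → ∀ x0 ∈ C,
        ∃ D : Set X, x0 ∈ D ∧ D ⊆ C ∧ IsClosed D ∧ Convex ℝ D ∧ IsSeparable D ∧
          Set.MapsTo T D D) ∧
    (∀ (X : Type u) [NormedAddCommGroup X] [NormedSpace ℝ X],
      FPP X ↔ ∀ Y : Submodule ℝ X, IsClosed (Y : Set X) → IsSeparable (Y : Set X) → FPP Y) ∧
    ((∀ (X : Type u) [NormedAddCommGroup X] [NormedSpace ℝ X] [CompleteSpace X],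
        Reflexive X → FPP X) ↔
      (∀ (X : Type u) [NormedAddCommGroup X] [NormedSpace ℝ X] [CompleteSpace X]
        [SeparableSpace X], Reflexive X → FPP X)) := by
  refine ⟨fun X _ _ C T hcl hconv hT x0 hx0 => exists_separable_invariant hcl hconv hT hx0,
    fun X _ _ => ⟨fun h Y hY _ => h.subspace Y hY, FPP.of_separable_subspaces⟩,
    ⟨fun h X _ _ _ _ hr => h X hr, fun h X _ _ _ hr => ?_⟩⟩
  refine FPP.of_separable_subspaces fun Y hYc hYs => ?_
  have : CompleteSpace Y := hYc.completeSpace_coe
  have : SeparableSpace Y := hYs.separableSpace
  exact h Y (hr.subspace Y hYc)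

end Vale.Agent.Results.P079.SeparablyDetermined
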